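import Mathlib
import Vale.Agent.H27.HLE

/-!
# P100: the Henon-Lane-Emden conjecture in the supersolution range, for all real weights

No positive entire solution of `-Δu = |x|^A v^p`, `-Δv = |x|^B u^q` on `ℝⁿ \ {0}` (`n ≥ 2`,
`p, q > 0`, `A, B` real) exists when `A ≤ -2`, or `B ≤ -2`, or
`(n-2)(pq-1) < max (2+A+p(2+B)) (2+B+q(2+A))`.  The proof is integration-free: interior minimum
principle and explicit radial barriers.
-/

set_option autoImplicit false

open Filter Topology Laplacian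

namespace Vale.Agent.Results.P100.A_SupersolutionRange

open Vale.Agent.H27

theorem result (n : ℕ) (hn : 2 ≤ n) (p q A B : ℝ) (hp : 0 < p) (hq : 0 < q)
    (hrange : A ≤ -2 ∨ B ≤ -2 ∨
      ((n : ℝ) - 2) * (p * q - 1) < max (2 + A + p * (2 + B)) (2 + B + q * (2 + A))) :
    ¬ ∃ u v : EuclideanSpace ℝ (Fin n) → ℝ,
      Continuous u ∧ Continuous v ∧
      ContDiffOn ℝ 2 u {0}ᶜ ∧ ContDiffOn ℝ 2 v {0}ᶜ ∧
      (∀ x, 0 < u x) ∧ (∀ x, 0 < v x) ∧
      (∀ x, x ≠ 0 → -(Δ u x) = ‖x‖ ^ A * v x ^ p) ∧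
      (∀ x, x ≠ 0 → -(Δ v x) = ‖x‖ ^ B * u x ^ q) := by
  rintro ⟨u, v, hu_cont, hv_cont, hu_smooth, hv_smooth, hu_pos, hv_pos, hu_eq, hv_eq⟩
  have hfin : Module.finrank ℝ (EuclideanSpace ℝ (Fin n)) = n := finrank_euclideanSpace_fin
  have hnt : Nontrivial (EuclideanSpace ℝ (Fin n)) :=
    Module.nontrivial_of_finrank_pos (R := ℝ) (by rw [hfin]; omega)
  have hopen : ∀ x : EuclideanSpace ℝ (Fin n), x ≠ 0 →
      ({0}ᶜ : Set (EuclideanSpace ℝ (Fin n))) ∈ 𝓝 x := fun x hx =>
    isOpen_compl_singleton.mem_nhds hx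
  have hu_ineq : ∀ x : EuclideanSpace ℝ (Fin n), x ≠ 0 → Δ u x ≤ -(‖x‖ ^ A * v x ^ p) := by
    intro x hx
    have := hu_eq x hx
    linarith
  have hv_ineq : ∀ x : EuclideanSpace ℝ (Fin n), x ≠ 0 → Δ v x ≤ -(‖x‖ ^ B * u x ^ q) := by
    intro x hx
    have := hv_eq x hx
    linarith
  have hu : PosSuper u := by
    intro x hx
    refine ⟨hu_smooth.contDiffAt (hopen x hx), ?_, hu_pos x⟩
    have h1 : 0 < ‖x‖ ^ A * v x ^ p :=
      mul_pos (Real.rpow_pos_of_pos (norm_pos_iff.mpr hx) A) (Real.rpow_pos_of_pos (hv_pos x) p)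
    have := hu_ineq x hx
    linarith
  have hv : PosSuper v := by
    intro x hx
    refine ⟨hv_smooth.contDiffAt (hopen x hx), ?_, hv_pos x⟩
    have h1 : 0 < ‖x‖ ^ B * u x ^ q :=
      mul_pos (Real.rpow_pos_of_pos (norm_pos_iff.mpr hx) B) (Real.rpow_pos_of_pos (hu_pos x) q)
    have := hv_ineq x hx
    linarith
  by_cases hn2 : n = 2
  · exact hu.false_of_dim_two (by rw [hfin, hn2])
  · have hn3 : 3 ≤ Module.finrank ℝ (EuclideanSpace ℝ (Fin n)) := by rw [hfin]; omega
    by_cases hA : A ≤ -2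
    · exact no_pair_singular_weight hn3 hp.le hA hu hv hu_cont.continuousAt hu_ineq
    · by_cases hB : B ≤ -2
      · exact no_pair_singular_weight hn3 hq.le hB hv hu hv_cont.continuousAt hv_ineq
      · have hA' : -2 < A := not_le.mp hA
        have hB' : -2 < B := not_le.mp hB
        have hmain : ((n : ℝ) - 2) * (p * q - 1)
            < max (2 + A + p * (2 + B)) (2 + B + q * (2 + A)) := by
          rcases hrange with h | h | h
          · exact absurd h hA
          · exact absurd h hB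
          · exact h
        rcases lt_max_iff.mp hmain with h | h
        · exact no_pair_main hn3 hp hq hA' hB' hu hv hu_ineq hv_ineq (by rw [hfin]; exact h)
        · refine no_pair_main hn3 hq hp hB' hA' hv hu hv_ineq hu_ineq ?_
          rw [hfin, mul_comm q p]
          exact h

end Vale.Agent.Results.P100.A_SupersolutionRange
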