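import Mathlib
import Vale.Agent.Results.P100.A_SupersolutionRange

/-!
# P100: the Henon-Lane-Emden conjecture in the supersolution range, with two cases spelled out

1. The statement of `A_SupersolutionRange`: no positive entire solution of
   `-Δu = |x|^A v^p`, `-Δv = |x|^B u^q` on `ℝⁿ \ {0}` (`n ≥ 2`, `p, q > 0`, `A, B` real) exists
   when `A ≤ -2`, or `B ≤ -2`, or `(n-2)(pq-1) < max (2+A+p(2+B)) (2+B+q(2+A))`.
2. In particular no positive entire solution exists when `n = 2` or `pq ≤ 1`, for all real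
   weights `A`, `B`.

Part 2 follows from part 1: if `A, B > -2` then `2+A+p(2+B) > 0 ≥ (n-2)(pq-1)`.
-/

set_option autoImplicit false

open Filter Topology Laplacian

namespace Vale.Agent.Results.P100.A0_SupersolutionCases

theorem result :
    (∀ n : ℕ, 2 ≤ n → ∀ p q A B : ℝ, 0 < p → 0 < q →
      (A ≤ -2 ∨ B ≤ -2 ∨
        ((n : ℝ) - 2) * (p * q - 1) < max (2 + A + p * (2 + B)) (2 + B + q * (2 + A))) →
      ¬ ∃ u v : EuclideanSpace ℝ (Fin n) → ℝ,
        Continuous u ∧ Continuous v ∧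
        ContDiffOn ℝ 2 u {0}ᶜ ∧ ContDiffOn ℝ 2 v {0}ᶜ ∧
        (∀ x, 0 < u x) ∧ (∀ x, 0 < v x) ∧
        (∀ x, x ≠ 0 → -(Δ u x) = ‖x‖ ^ A * v x ^ p) ∧
        (∀ x, x ≠ 0 → -(Δ v x) = ‖x‖ ^ B * u x ^ q)) ∧
    (∀ n : ℕ, 2 ≤ n → ∀ p q A B : ℝ, 0 < p → 0 < q → (n = 2 ∨ p * q ≤ 1) →
      ¬ ∃ u v : EuclideanSpace ℝ (Fin n) → ℝ,
        Continuous u ∧ Continuous v ∧
        ContDiffOn ℝ 2 u {0}ᶜ ∧ ContDiffOn ℝ 2 v {0}ᶜ ∧
        (∀ x, 0 < u x) ∧ (∀ x, 0 < v x) ∧
        (∀ x, x ≠ 0 → -(Δ u x) = ‖x‖ ^ A * v x ^ p) ∧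
        (∀ x, x ≠ 0 → -(Δ v x) = ‖x‖ ^ B * u x ^ q)) := by
  refine ⟨fun n hn p q A B hp hq hrange =>
    Vale.Agent.Results.P100.A_SupersolutionRange.result n hn p q A B hp hq hrange, ?_⟩
  intro n hn p q A B hp hq h
  apply Vale.Agent.Results.P100.A_SupersolutionRange.result n hn p q A B hp hq
  by_cases hA : A ≤ -2
  · exact Or.inl hA
  · by_cases hB : B ≤ -2
    · exact Or.inr (Or.inl hB)
    · refine Or.inr (Or.inr ?_)
      have hA' : -2 < A := not_le.mp hA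
      have hB' : -2 < B := not_le.mp hB
      have hpB : 0 < p * (2 + B) := mul_pos hp (by linarith)
      have hpos : 0 < 2 + A + p * (2 + B) := by linarith
      have hn' : (2 : ℝ) ≤ (n : ℝ) := by exact_mod_cast hn
      have hle : ((n : ℝ) - 2) * (p * q - 1) ≤ 0 := by
        rcases h with h | h
        · rw [h]
          norm_num
        · exact mul_nonpos_of_nonneg_of_nonpos (by linarith) (by linarith)
      exact lt_of_le_of_lt hle (lt_of_lt_of_le hpos (le_max_left _ _))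

end Vale.Agent.Results.P100.A0_SupersolutionCases
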